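import Vale.Agent.P078.X.All

namespace Vale.Agent.Results.P078.AllMasa

open Vale.Agent.P078

theorem result {H : Type*} [NormedAddCommGroup H] [InnerProductSpace ℂ H] [CompleteSpace H]
    (M : VonNeumannAlgebra H) (A : StarSubalgebra ℂ (H →L[ℂ] H)) (hA : IsMASA M A)
    (ε : ℝ) (h0 : 0 < ε) (h1 : ε < 1) :
    ∃ r : ℕ, 1 ≤ r ∧ (r : ℝ) ≤ 10 ^ 7 / ε ^ 2 ∧
      ∀ x ∈ M, IsSelfAdjoint x → SoPavable M A x ε r := by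
  have e2 : ε ^ 2 < 1 := by nlinarith
  have e0 : 0 < ε ^ 2 := by positivity
  have k1 : (2000 : ℝ) ^ 2 ≤ 2000 ^ 2 / ε ^ 2 := by
    rw [le_div_iff₀ e0]; nlinarith
  have k2 := Nat.le_ceil ((2000 : ℝ) ^ 2 / ε ^ 2)
  have k3 : 2 ≤ ⌈(2000 : ℝ) ^ 2 / ε ^ 2⌉₊ := by
    have : ((2 : ℕ) : ℝ) ≤ ⌈(2000 : ℝ) ^ 2 / ε ^ 2⌉₊ := by push_cast; linarith
    exact_mod_cast this
  refine ⟨⌈(2000 : ℝ) ^ 2 / ε ^ 2⌉₊ + ⌈(2000 : ℝ) ^ 2 / ε ^ 2⌉₊, by omega, ?_,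
    fun x hx hs => G.pave_all hA h0 k3 k2 h1 hx hs⟩
  have k4 := Nat.ceil_lt_add_one (show (0 : ℝ) ≤ 2000 ^ 2 / ε ^ 2 by positivity)
  have k5 : (1 : ℝ) ≤ 1 / ε ^ 2 := by rw [le_div_iff₀ e0]; linarith
  have k6 : (10 : ℝ) ^ 7 / ε ^ 2 = 10 ^ 7 * (1 / ε ^ 2) := by ring
  have k7 : (2000 : ℝ) ^ 2 / ε ^ 2 = 2000 ^ 2 * (1 / ε ^ 2) := by ring
  push_cast
  linarith

end Vale.Agent.Results.P078.AllMasa
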